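import Vale.Agent.P097.H103.T.Non
import Vale.Agent.P097.H82.Sel.Dep

/-!
# P097 / T-DISC, row (C2): `Dp` over helper82's `dep`, and (C2) for it
-/

set_option linter.all false

open Complex Metric Filter Topology Set

namespace Vale.Agent.P097.H103.T

open Vale.Agent.P097.H85 Vale.Agent.P097.H929 Vale.Agent.P097.H82.Sel

/-- helper82's depth has the three properties -/
theorem dp_of {A : Set ℝ} {R c : ℝ → ℝ} {K1 T : ℝ} (h : DG A R c K1 T) :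
    Dp A R c K1 (T + K1) (dep A R c K1) where
  lb a ha t w := by
    have := h.le_hgt ha w
    unfold dep
    simp only
    linarith
  lab a ha t := by
    have := h.hgt_at ha
    unfold dep
    simp only
    rw [this]
  lip t w w' := by
    have := h.hgt_lip w w'
    have e : dep A R c K1 (t, w) - dep A R c K1 (t, w') = hgt A R c K1 w - hgt A R c K1 w' := by
      unfold dep; simp
    rwa [e]

/-- bounds of `c`, `k` -/
theorem cmpU_bd {M : Set (ℂ × ℂ)} {b m : ℝ} {Ψ : ℂ → ℂ} {A : Set ℝ} {P : ℝ → ℂ} {c k : ℝ → ℝ}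
    (hU : CmpU M b m Ψ A P c k) : ∃ S : ℝ, 0 ≤ S ∧ ∀ u ∈ A, |c u| ≤ S ∧ |k u| ≤ S := by
  obtain ⟨S, hS⟩ := hU.bd
  exact ⟨|S|, abs_nonneg _, fun u hu => ⟨(hS u hu).1.trans (le_abs_self _),
    (hS u hu).2.trans (le_abs_self _)⟩⟩

/-- **(C2) over helper82's `dep`**: for every `K₂` there is ONE cone constant `K'` (independent of
the aperture `c₁`) -/
theorem non_dep {M : Set (ℂ × ℂ)} {b m : ℝ} {Ψ : ℂ → ℂ} {A : Set ℝ} {P : ℝ → ℂ} {c k : ℝ → ℝ}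
    {K1 T : ℝ} (hU : CmpU M b m Ψ A P c k) (hA : IsCompact A)
    (h : DG A (fun u => (P u).im) c K1 T) (K₂ : ℝ) :
    ∃ K' : ℝ, 1 ≤ K' ∧ ∀ c₁ > 0, ∃ d > 0, ∀ w : ℂ, infDist w.re A < d → 0 < w.im → w.im < d →
      c₁ * infDist w.re A ≤ w.im → ∀ s : ℂ, K' * (w.im + infDist w.re A) ≤ -s.im →
        -s.im / 2 ≤ dep A (fun u => (P u).im) c K1 (s + Ψ w, w) ∧
        dep A (fun u => (P u).im) c K1 (s + Ψ w, w) ≤ 2 * (-s.im) ∧
        K₂ * (|w.im| + infDist w.re A) ≤ dep A (fun u => (P u).im) c K1 (s + Ψ w, w) ∧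
        K' / 2 * (w.im + infDist w.re A) ≤ dep A (fun u => (P u).im) c K1 (s + Ψ w, w) ∧
        ∀ C' r pr : ℝ, ∀ u : ℂ, -s.im ≤ C' * (r + ‖w - u‖) → c₁ * pr ≤ w.im → 0 ≤ pr →
          min (1 / 2) (c₁ / 4) * (pr + w.im + infDist w.re A) ≤
            dep A (fun u => (P u).im) c K1 (s + Ψ w, w) ∧
          dep A (fun u => (P u).im) c K1 (s + Ψ w, w) ≤ 2 * C' * (r + ‖w - u‖) := by
  obtain ⟨S, hS0, hS⟩ := cmpU_bd hU
  refine ⟨KK K1 (T + K1) S K₂, ?_, fun c₁ hc₁ => ?_⟩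
  · have h1 := abs_nonneg K1
    have h2 := abs_nonneg (T + K1)
    have h3 := abs_nonneg K₂
    unfold KK
    linarith
  obtain ⟨d₁, hd₁, h₁⟩ := non hU hA h.ne (dp_of h) hS K₂ hc₁
  obtain ⟨d₂, hd₂, h₂⟩ := non_lat hU hA h.ne (dp_of h) hS K₂ hc₁
  refine ⟨min d₁ d₂, lt_min hd₁ hd₂, fun w w1 w2 w3 w4 s hs => ?_⟩
  obtain ⟨e1, e2, e3, e4⟩ := h₁ w (w1.trans_le (min_le_left _ _)) w2
    (w3.trans_le (min_le_left _ _)) w4 s hs
  refine ⟨e1, e2, e3, e4, fun C' r pr u u1 u2 u3 => ?_⟩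
  obtain ⟨f1, f2, -⟩ := h₂ w (w1.trans_le (min_le_right _ _)) w2
    (w3.trans_le (min_le_right _ _)) w4 s hs C' r pr u u1 u2 u3
  exact ⟨f1, f2⟩

end Vale.Agent.P097.H103.T
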