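import Vale.Agent.P097.H226.W.Defs
import Vale.Agent.P097.H983.Har

/-!
# P097 / block (T), T-DISC: far bounds of `al`, `p` themselves from the Prop `H226.W.Lat`
-/

set_option linter.all false

open Complex Metric Filter Topology Set

namespace Vale.Agent.P097.H103.T

open Vale.Agent.P097.TC Vale.Agent.P097.H226.W

/-- `x ↦ 4 N A ω⁻¹ exp (K (2 ω⁻¹) ^ a)` is absorbed by `exp (K' ω⁻¹ ^ a)` -/
theorem absorb {A K a : ℝ} (hA : 1 ≤ A) (hK : 0 ≤ K) (ha : 0 < a) {ω : ℝ} (h0 : 0 < ω)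
    (h1 : ω ≤ 1) :
    A * ω⁻¹ * Real.exp (K * (ω / 2)⁻¹ ^ a) ≤
      Real.exp ((A + 1 / a + K * 2 ^ a) * ω⁻¹ ^ a) := by
  have hi : 1 ≤ ω⁻¹ := (one_le_inv₀ h0).2 h1
  have hi0 : 0 < ω⁻¹ := inv_pos.2 h0
  have hp : 1 ≤ ω⁻¹ ^ a := Real.one_le_rpow hi ha.le
  have hp0 : 0 < ω⁻¹ ^ a := by positivity
  have e1 : (ω / 2)⁻¹ ^ a = 2 ^ a * ω⁻¹ ^ a := by
    rw [← Real.mul_rpow (by norm_num) hi0.le]
    congr 1
    field_simp
  have e2 : A ≤ Real.exp (A * ω⁻¹ ^ a) := by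
    have := Real.add_one_le_exp (A * ω⁻¹ ^ a)
    nlinarith
  have e3 : ω⁻¹ ≤ Real.exp (1 / a * ω⁻¹ ^ a) := by
    have h3 : Real.log ω⁻¹ ≤ ω⁻¹ ^ a / a := Real.log_le_rpow_div hi0.le ha
    rw [← Real.exp_log hi0]
    refine Real.exp_le_exp.2 ?_
    rw [Real.exp_log hi0]
    calc Real.log ω⁻¹ ≤ ω⁻¹ ^ a / a := h3
      _ = 1 / a * ω⁻¹ ^ a := by ring
  rw [e1]
  calc A * ω⁻¹ * Real.exp (K * (2 ^ a * ω⁻¹ ^ a))
      ≤ Real.exp (A * ω⁻¹ ^ a) * Real.exp (1 / a * ω⁻¹ ^ a) *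
        Real.exp (K * (2 ^ a * ω⁻¹ ^ a)) := by gcongr
    _ = Real.exp ((A + 1 / a + K * 2 ^ a) * ω⁻¹ ^ a) := by
        rw [← Real.exp_add, ← Real.exp_add]; congr 1; ring

/-- chain of small steps along a segment -/
theorem seg_chain {f : ℂ × ℂ → ℂ} {z w : ℂ × ℂ} {s B L : ℝ} (hs : 0 < s) (hL : ‖z - w‖ ≤ L)
    (hf : ∀ t ∈ Icc (0 : ℝ) 1, ∀ y : ℂ × ℂ, ‖y - (w + (t : ℝ) • (z - w))‖ ≤ s →
      ‖f y - f (w + (t : ℝ) • (z - w))‖ ≤ B) (hB : 0 ≤ B) :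
    ‖f z - f w‖ ≤ (L / s + 1) * B := by
  have hL0 : 0 ≤ L := (norm_nonneg _).trans hL
  obtain ⟨n, hn1, hn2⟩ : ∃ n : ℕ, L / s ≤ n ∧ (n : ℝ) < L / s + 1 :=
    ⟨⌈L / s⌉₊, Nat.le_ceil _, Nat.ceil_lt_add_one (by positivity)⟩
  rcases Nat.eq_zero_or_pos n with h0 | h0
  · have hLs : L / s ≤ 0 := by simpa [h0] using hn1
    have hL1 : L ≤ 0 := by
      rcases le_or_gt L 0 with h | h
      · exact h
      · exact absurd (div_pos h hs) (not_lt.2 hLs)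
    have : z = w := sub_eq_zero.1 (norm_le_zero_iff.1 (hL.trans hL1))
    rw [this]
    simp
    positivity
  have hnp : (0 : ℝ) < n := by exact_mod_cast h0
  have key : ∀ k : ℕ, k ≤ n → ‖f (w + ((k : ℝ) / n) • (z - w)) - f w‖ ≤ k * B := by
    intro k
    induction k with
    | zero => intro _; simp
    | succ k ih =>
      intro hk
      have hk' : k ≤ n := Nat.le_of_succ_le hk
      have ht : (k : ℝ) / n ∈ Icc (0 : ℝ) 1 :=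
        ⟨by positivity, (div_le_one hnp).2 (by exact_mod_cast hk')⟩
      have h1 := hf _ ht (w + (((k + 1 : ℕ) : ℝ) / n) • (z - w)) (by
        have e : w + (((k + 1 : ℕ) : ℝ) / n) • (z - w) - (w + ((k : ℝ) / n) • (z - w)) =
            ((1 : ℝ) / n) • (z - w) := by
          have : (((k + 1 : ℕ) : ℝ) / n) = (k : ℝ) / n + 1 / n := by push_cast; ring
          rw [this, add_smul]; abel
        rw [e, norm_smul, Real.norm_of_nonneg (by positivity)]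
        calc 1 / (n : ℝ) * ‖z - w‖ ≤ 1 / n * L := by gcongr
          _ ≤ s := by
            rw [one_div, inv_mul_le_iff₀ hnp]
            rwa [div_le_iff₀ hs] at hn1)
      have h2 := ih hk'
      calc ‖f (w + (((k + 1 : ℕ) : ℝ) / n) • (z - w)) - f w‖
          ≤ ‖f (w + (((k + 1 : ℕ) : ℝ) / n) • (z - w)) - f (w + ((k : ℝ) / n) • (z - w))‖ +
            ‖f (w + ((k : ℝ) / n) • (z - w)) - f w‖ := norm_sub_le_norm_sub_add_norm_sub _ _ _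
        _ ≤ B + k * B := add_le_add h1 h2
        _ = ((k + 1 : ℕ) : ℝ) * B := by push_cast; ring
  have h1 := key n le_rfl
  rw [div_self hnp.ne', one_smul, add_sub_cancel] at h1
  exact h1.trans (mul_le_mul_of_nonneg_right hn2.le hB)

theorem norm_ax {h : ℝ} (hh : 0 ≤ h) : ‖ax h‖ = h := by
  simp [ax, Prod.norm_def, abs_of_nonneg hh]

/-- both signs of `Lat` -/
theorem two_signs {al p : ℂ × ℂ → ℂ} {y : ℂ × ℂ} {E₁ E₂ E : ℝ}
    (h1 : ‖exp (((1 : ℝ) : ℂ) * I * al y)‖ ≤ Real.exp E₁)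
    (h2 : ‖2 * p y * exp (((1 : ℝ) : ℂ) * I * al y)‖ ≤ Real.exp E₁)
    (h3 : ‖exp (((-1 : ℝ) : ℂ) * I * al y)‖ ≤ Real.exp E₂) (e1 : E₁ ≤ E) (e2 : E₂ ≤ E) :
    |(al y).im| ≤ E ∧ ‖p y‖ ≤ Real.exp (2 * E) := by
  have r1 : ((((1 : ℝ) : ℂ)) * I * al y).re = -(al y).im := by simp
  have r2 : ((((-1 : ℝ) : ℂ)) * I * al y).re = (al y).im := by simp
  rw [Complex.norm_exp, r1] at h1
  rw [Complex.norm_exp, r2] at h3
  have a1' := Real.exp_le_exp.1 h1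
  have a3' := Real.exp_le_exp.1 h3
  have a5 : |(al y).im| ≤ E := abs_le.2 ⟨by linarith, by linarith⟩
  refine ⟨a5, ?_⟩
  rw [norm_mul, norm_mul, Complex.norm_exp, r1] at h2
  have a6 : ‖(2 : ℂ)‖ = 2 := by simp
  rw [a6] at h2
  have a7 : ‖p y‖ * Real.exp (-(al y).im) ≤ Real.exp E := by
    have := h2.trans (Real.exp_le_exp.2 e1)
    have h3 : 0 ≤ ‖p y‖ * Real.exp (-(al y).im) := by positivity
    nlinarith
  calc ‖p y‖ = ‖p y‖ * Real.exp (-(al y).im) * Real.exp ((al y).im) := by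
        rw [mul_assoc, ← Real.exp_add]; simp
    _ ≤ Real.exp E * Real.exp E := by
        gcongr
        exact (le_abs_self _).trans a5
    _ = _ := by rw [← Real.exp_add]; congr 1; ring

/-- absorption of the constants -/
theorem absorb2 {A K a N V : ℝ} (hA : 1 ≤ A) (hK : 0 ≤ K) (ha : 0 < a) (hV : 0 ≤ V) {ω : ℝ}
    (h0 : 0 < ω) (h1 : ω ≤ 1) :
    A * ω⁻¹ * (K * (ω / 2)⁻¹ ^ N * (1 + V) + Real.exp (K * (ω / 2)⁻¹ ^ a)) ≤
      max (A * 2 ^ N * K) (A + 1 / a + K * 2 ^ a) * ω⁻¹ ^ (N + 1) * (1 + V) +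
      Real.exp (max (A * 2 ^ N * K) (A + 1 / a + K * 2 ^ a) * ω⁻¹ ^ a) := by
  have hi0 : 0 < ω⁻¹ := inv_pos.2 h0
  set K' : ℝ := max (A * 2 ^ N * K) (A + 1 / a + K * 2 ^ a) with hK'
  have e1 : (ω / 2)⁻¹ ^ N = 2 ^ N * ω⁻¹ ^ N := by
    rw [← Real.mul_rpow (by norm_num) hi0.le]
    congr 1
    field_simp
  have e2 : ω⁻¹ ^ (N + 1) = ω⁻¹ ^ N * ω⁻¹ := by
    rw [Real.rpow_add hi0, Real.rpow_one]
  have e3 := absorb hA hK ha h0 h1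
  have e4 : Real.exp ((A + 1 / a + K * 2 ^ a) * ω⁻¹ ^ a) ≤ Real.exp (K' * ω⁻¹ ^ a) := by
    gcongr
    exact le_max_right _ _
  have e5 : A * ω⁻¹ * (K * (ω / 2)⁻¹ ^ N * (1 + V)) ≤ K' * ω⁻¹ ^ (N + 1) * (1 + V) := by
    rw [e1, e2]
    calc A * ω⁻¹ * (K * (2 ^ N * ω⁻¹ ^ N) * (1 + V))
        = (A * 2 ^ N * K) * (ω⁻¹ ^ N * ω⁻¹) * (1 + V) := by ring
      _ ≤ K' * (ω⁻¹ ^ N * ω⁻¹) * (1 + V) := by
        gcongr
        exact le_max_left _ _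
  rw [mul_add]
  exact add_le_add e5 (e3.trans e4)

/-- the points of the segment from the axis point to `z` -/
theorem seg_pt {X h ω : ℝ} (hX : 1 ≤ X) (hh : 0 < h) (hω1 : ω ≤ 1) {z : ℂ × ℂ}
    (hz1 : ω * h ≤ -z.1.im) (hz2 : ω * h ≤ z.2.im) (hz3 : ‖z‖ ≤ X * h) {t : ℝ}
    (ht : t ∈ Icc (0 : ℝ) 1) :
    ω * h ≤ -(ax h + (t : ℝ) • (z - ax h)).1.im ∧
      ω * h ≤ (ax h + (t : ℝ) • (z - ax h)).2.im ∧ ‖ax h + (t : ℝ) • (z - ax h)‖ ≤ X * h := by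
  have hωh : ω * h ≤ h := by nlinarith
  have i1 : (ax h + (t : ℝ) • (z - ax h)).1.im = -h + t * (z.1.im + h) := by
    simp [ax]
    ring
  have i2 : (ax h + (t : ℝ) • (z - ax h)).2.im = h + t * (z.2.im - h) := by
    simp [ax]
  rw [i1, i2]
  obtain ⟨t0, t1⟩ := ht
  refine ⟨by nlinarith, by nlinarith, ?_⟩
  have : ax h + (t : ℝ) • (z - ax h) = (1 - t) • ax h + t • z := by
    rw [smul_sub, sub_smul, one_smul]; abel
  rw [this]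
  refine (norm_add_le _ _).trans ?_
  rw [norm_smul, norm_smul, Real.norm_of_nonneg (by linarith), Real.norm_of_nonneg t0,
    norm_ax hh.le]
  have k1 : t * ‖z‖ ≤ t * (X * h) := mul_le_mul_of_nonneg_left hz3 t0
  have k2 : (1 - t) * h ≤ (1 - t) * (X * h) :=
    mul_le_mul_of_nonneg_left (by nlinarith) (by linarith)
  linarith

/-- depth in a ball -/
theorem ball_pt {X h ω : ℝ} (hω : 0 < ω) (hω1 : ω ≤ 1) (hh : 0 < h) {c y : ℂ × ℂ}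
    (p1 : ω * h ≤ -c.1.im) (p2 : ω * h ≤ c.2.im) (p3 : ‖c‖ ≤ X * h)
    (hy : y ∈ ball c (ω * h / 2)) :
    (ω / 2) * h ≤ -y.1.im ∧ (ω / 2) * h ≤ y.2.im ∧ ‖y‖ ≤ (X + 1) * h := by
  rw [mem_ball, dist_eq_norm] at hy
  have q1 : |y.1.im - c.1.im| ≤ ‖y - c‖ := by
    have : |(y.1 - c.1).im| ≤ ‖y.1 - c.1‖ := Complex.abs_im_le_norm _
    rw [sub_im] at this
    exact this.trans (norm_fst_le (y - c))
  have q2 : |y.2.im - c.2.im| ≤ ‖y - c‖ := by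
    have : |(y.2 - c.2).im| ≤ ‖y.2 - c.2‖ := Complex.abs_im_le_norm _
    rw [sub_im] at this
    exact this.trans (norm_snd_le (y - c))
  have q3 := norm_sub_norm_le y c
  have r1 := abs_le.1 q1
  have r2 := abs_le.1 q2
  have hωh : ω * h ≤ h := by nlinarith
  exact ⟨by nlinarith [r1.2], by nlinarith [r2.1], by nlinarith⟩

/-- points of the box and of the quadrant -/
theorem mem_bw {X h η : ℝ} (hη : 0 < η) (hh : 0 < h) (hXh : (X + 1) * h < 1)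
    {y : ℂ × ℂ} (y1 : η * h ≤ -y.1.im) (y2 : η * h ≤ y.2.im) (y3 : ‖y‖ ≤ (X + 1) * h) :
    y ∈ Bx 1 ∩ Qu := by
  have hp : 0 < η * h := by positivity
  have hy1 : ‖y‖ < 1 := y3.trans_lt hXh
  have hy2 := (norm_fst_le y).trans_lt hy1
  have hy3 := (norm_snd_le y).trans_lt hy1
  have hy4 : 0 < y.2.im := by linarith
  exact ⟨⟨(Complex.abs_re_le_norm _).trans_lt hy2, (Complex.abs_im_le_norm _).trans_lt hy2,
    (Complex.abs_re_le_norm _).trans_lt hy3, (Complex.abs_im_le_norm _).trans_lt hy3⟩,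
    by linarith, hy4⟩

/-- the chain of Borel-Caratheodory steps -/
theorem chain_al {X h ω E₂ : ℝ} {al : ℂ × ℂ → ℂ} (hal : DifferentiableOn ℂ al (Bx 1 ∩ Qu))
    (hX : 1 ≤ X) (hh : 0 < h) (hXh : (X + 1) * h < 1) (hω : 0 < ω) (hω1 : ω ≤ 1)
    (hE : 0 < E₂)
    (hb : ∀ y : ℂ × ℂ, (ω / 2) * h ≤ -y.1.im → (ω / 2) * h ≤ y.2.im → ‖y‖ ≤ (X + 1) * h →
      |(al y).im| ≤ E₂) {z : ℂ × ℂ} (hz1 : ω * h ≤ -z.1.im) (hz2 : ω * h ≤ z.2.im)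
    (hz3 : ‖z‖ ≤ X * h) :
    ‖al z - al (ax h)‖ ≤ (16 * X + 20) * ω⁻¹ * E₂ := by
  have hi : 1 ≤ ω⁻¹ := (one_le_inv₀ hω).2 hω1
  have hax := norm_ax hh.le
  have hstep : ∀ t ∈ Icc (0 : ℝ) 1, ∀ y : ℂ × ℂ,
      ‖y - (ax h + (t : ℝ) • (z - ax h))‖ ≤ ω * h / 4 →
      ‖al y - al (ax h + (t : ℝ) • (z - ax h))‖ ≤ 4 * E₂ := by
    intro t ht y hy
    obtain ⟨p1, p2, p3⟩ := seg_pt hX hh hω1 hz1 hz2 hz3 ht
    generalize ax h + (t : ℝ) • (z - ax h) = c at p1 p2 p3 hy ⊢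
    have hR : 0 < ω * h / 2 := by positivity
    have himb : ∀ y ∈ ball c (ω * h / 2), |(al y).im| ≤ E₂ := by
      intro y hy
      obtain ⟨d1, d2, d3⟩ := ball_pt hω hω1 hh p1 p2 p3 hy
      exact hb y d1 d2 d3
    have hdiff : DifferentiableOn ℂ al (ball c (ω * h / 2)) := hal.mono fun y hy => by
      obtain ⟨d1, d2, d3⟩ := ball_pt hω hω1 hh p1 p2 p3 hy
      exact mem_bw (by positivity) hh hXh d1 d2 d3
    have hb := Vale.Agent.P097.H983.borel (g := fun y => I * al y) (c := c) (z := y)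
      (R := ω * h / 2) (M := 2 * E₂) (by positivity) (hdiff.const_mul _) (fun y hy => by
        have h1 := (abs_le.1 (himb y hy)).1
        have h2 := (abs_le.1 (himb c (mem_ball_self hR))).2
        simp
        linarith) (lt_of_le_of_lt hy (by linarith))
    rw [← mul_sub, norm_mul, Complex.norm_I, one_mul] at hb
    refine hb.trans ?_
    have hd : ω * h / 4 ≤ ω * h / 2 - ‖y - c‖ := by linarith
    have hd0 : 0 < ω * h / 4 := by positivity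
    calc 2 * (2 * E₂) * ‖y - c‖ / (ω * h / 2 - ‖y - c‖)
        ≤ 2 * (2 * E₂) * (ω * h / 4) / (ω * h / 4) := by gcongr
      _ = 4 * E₂ := by field_simp; ring
  have hlen : ‖z - ax h‖ ≤ (X + 1) * h := by
    refine (norm_sub_le _ _).trans ?_
    rw [hax]; linarith
  have hfin := seg_chain (f := al) (z := z) (w := ax h) (s := ω * h / 4) (B := 4 * E₂)
    (L := (X + 1) * h) (by positivity) hlen hstep (by positivity)
  refine hfin.trans ?_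
  have e1 : (X + 1) * h / (ω * h / 4) = 4 * (X + 1) * ω⁻¹ := by field_simp
  rw [e1]
  have e2 : (4 * (X + 1) * ω⁻¹ + 1) * (4 * E₂) = (16 * (X + 1) * ω⁻¹ + 4) * E₂ := by ring
  rw [e2]
  refine mul_le_mul_of_nonneg_right ?_ hE.le
  nlinarith

/-- **far bounds of the lines at relative depth `ω`** -/
theorem lat_al (hL : H226.W.Lat) {Λ b : ℝ} {F q : ℂ → ℂ} (hc : Cv Λ b F q) (hg : Grw b F q)
    (a : ℝ) (ha : 0 < a) (e X om : ℝ) (he : 0 < e) (hX : 1 ≤ X) (hom : 0 < om) (hom1 : om ≤ 1) :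
    ∃ K : ℝ, 1 ≤ K ∧ ∃ N : ℝ, 1 ≤ N ∧ ∀ {al p th : ℂ × ℂ → ℂ}, SQ Λ b F q 1 al p th →
      ∀ h : ℝ, 0 < h → (X + 5) * h ≤ 1 → Md b F th X om e h →
      ∀ ω : ℝ, 0 < ω → ω ≤ 1 → ∀ z : ℂ × ℂ, ω * h ≤ -z.1.im → ω * h ≤ z.2.im → ‖z‖ ≤ X * h →
        |(al z).im| ≤ K * ω⁻¹ ^ N * (1 + |Vq F al th h|) + Real.exp (K * ω⁻¹ ^ a) ∧
        ‖al z - al (ax h)‖ ≤ K * ω⁻¹ ^ N * (1 + |Vq F al th h|) + Real.exp (K * ω⁻¹ ^ a) ∧
        ‖p z‖ ≤ Real.exp (K * ω⁻¹ ^ N * (1 + |Vq F al th h|) + Real.exp (K * ω⁻¹ ^ a)) := by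
  obtain ⟨K, hK, N, hN, hLL⟩ := hL hc hg a ha e (X + 1) om he (by linarith) hom hom1
  have hA1 : 1 ≤ 16 * X + 20 := by linarith
  have hK0 : 0 ≤ K := by linarith
  have h2N : (1 : ℝ) ≤ 2 ^ N := Real.one_le_rpow (by norm_num) (by linarith)
  have hK1 : 1 ≤ max ((16 * X + 20) * 2 ^ N * K) (16 * X + 20 + 1 / a + K * 2 ^ a) := by
    refine le_trans ?_ (le_max_left _ _)
    have : 1 ≤ (16 * X + 20) * 2 ^ N := one_le_mul_of_one_le_of_one_le hA1 h2N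
    exact one_le_mul_of_one_le_of_one_le this hK
  refine ⟨_, hK1, N + 1, by linarith, fun {al p th} W h hh hXh hM ω hω hω1 z hz1 hz2 hz3 => ?_⟩
  have hM' : Md b F th (X + 1) om e h := by
    obtain ⟨β, b1, b2, b3, b4, b5⟩ := hM
    exact ⟨β, b1, b2, b3.trans (by nlinarith), b4, b5⟩
  have hi : 1 ≤ ω⁻¹ := (one_le_inv₀ hω).2 hω1
  have hi0 : 0 < ω⁻¹ := inv_pos.2 hω
  have hV0 : 0 ≤ |Vq F al th h| := abs_nonneg _
  have m1 : max (1 * Vq F al th h) 0 ≤ |Vq F al th h| :=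
    max_le (by rw [one_mul]; exact le_abs_self _) hV0
  have m2 : max (-1 * Vq F al th h) 0 ≤ |Vq F al th h| :=
    max_le (by rw [neg_one_mul]; exact neg_le_abs _) hV0
  have bd : ∀ ω' : ℝ, 0 < ω' → ω' ≤ 1 → ∀ y : ℂ × ℂ, ω' * h ≤ -y.1.im → ω' * h ≤ y.2.im →
      ‖y‖ ≤ (X + 1) * h →
      |(al y).im| ≤ K * ω'⁻¹ ^ N * (1 + |Vq F al th h|) + Real.exp (K * ω'⁻¹ ^ a) ∧
      ‖p y‖ ≤ Real.exp (2 * (K * ω'⁻¹ ^ N * (1 + |Vq F al th h|) + Real.exp (K * ω'⁻¹ ^ a))) := by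
    intro ω' h0 h1 y y1 y2 y3
    have hi' : 0 < ω'⁻¹ := inv_pos.2 h0
    have hc0 : 0 ≤ K * ω'⁻¹ ^ N := by positivity
    obtain ⟨-, a1, a2⟩ := hLL W h hh (by nlinarith) hM' ω' h0 h1 y y1 y2 y3 1 (Or.inl rfl)
    obtain ⟨-, a3, -⟩ := hLL W h hh (by nlinarith) hM' ω' h0 h1 y y1 y2 y3 (-1) (Or.inr rfl)
    exact two_signs a1 a2 a3 (by gcongr) (by gcongr)
  have hE2 := absorb2 (N := N) hA1 hK0 ha hV0 hω hω1
  set E₂ : ℝ := K * (ω / 2)⁻¹ ^ N * (1 + |Vq F al th h|) + Real.exp (K * (ω / 2)⁻¹ ^ a) with hE₂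
  have hE₂0 : 0 < E₂ := by rw [hE₂]; positivity
  have hAω : 2 ≤ (16 * X + 20) * ω⁻¹ := by nlinarith
  have hAE : 2 * E₂ ≤ (16 * X + 20) * ω⁻¹ * E₂ := mul_le_mul_of_nonneg_right hAω hE₂0.le
  have hmono : K * ω⁻¹ ^ N * (1 + |Vq F al th h|) + Real.exp (K * ω⁻¹ ^ a) ≤ E₂ := by
    have h1 : ω⁻¹ ≤ (ω / 2)⁻¹ := by
      rw [inv_le_inv₀ hω (by positivity)]; linarith
    rw [hE₂]
    gcongr
  obtain ⟨b1, b2⟩ := bd ω hω hω1 z hz1 hz2 (hz3.trans (by nlinarith))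
  refine ⟨b1.trans (hmono.trans ?_), ?_, b2.trans (Real.exp_le_exp.2 ?_)⟩
  · linarith
  · exact (chain_al W.dal hX hh (by nlinarith) hω hω1 hE₂0
      (fun y y1 y2 y3 => (bd (ω / 2) (by positivity) (by linarith) y y1 y2 y3).1)
      hz1 hz2 hz3).trans hE2
  · linarith

end Vale.Agent.P097.H103.T
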