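import Vale.Agent.P097.H929.Thin

/-!
# P097 / case [c] / T-DISC, row (C2): non-tangential comparison of the depths

`dep (t, w) = sup_{u ∈ A} (R u + c u (Re w - u) - K₁ ‖w - u‖) - Im t`, enters only through
`Dp`: `lb` (the sup is an upper bound), `lab` (the value over a label), `lip`.
`s` = straightened height, `t = s + Ψ w`.
-/

set_option linter.all false

open Complex Metric Filter Topology Set

namespace Vale.Agent.P097.H103.T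

open Vale.Agent.P097.H85 Vale.Agent.P097.H929

/-- the three properties of the depth -/
structure Dp (A : Set ℝ) (R c : ℝ → ℝ) (K₁ L₁ : ℝ) (dep : ℂ × ℂ → ℝ) : Prop where
  lb : ∀ a ∈ A, ∀ t w : ℂ, R a + c a * (w.re - a) - K₁ * ‖w - a‖ - t.im ≤ dep (t, w)
  lab : ∀ a ∈ A, ∀ t : ℂ, dep (t, (a : ℂ)) ≤ R a - t.im
  lip : ∀ t w w' : ℂ, |dep (t, w) - dep (t, w')| ≤ L₁ * ‖w - w'‖

/-- the constant of the cone -/
noncomputable def KK (K₁ L₁ S K₂ : ℝ) : ℝ := 2 * (|K₁| + |L₁| + 2 * S + 1) + 2 * |K₂|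

theorem KK_pos {K₁ L₁ S K₂ : ℝ} (hS : 0 ≤ S) : 0 < KK K₁ L₁ S K₂ := by
  have h1 := abs_nonneg K₁
  have h2 := abs_nonneg L₁
  have h3 := abs_nonneg K₂
  unfold KK
  linarith

/-- the distance to the label -/
theorem norm_lab {w : ℂ} {a : ℝ} (hw : 0 ≤ w.im) : ‖w - a‖ ≤ |w.re - a| + w.im := by
  have h := Complex.norm_le_abs_re_add_abs_im (w - a)
  simp only [sub_re, ofReal_re, sub_im, ofReal_im, sub_zero] at h
  rwa [abs_of_nonneg hw] at h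

/-- the expansion of `Im Ψ` at a label, `ε = 1` -/
theorem cmp_im {M : Set (ℂ × ℂ)} {b m : ℝ} {Ψ : ℂ → ℂ} {a ρ : ℝ} {P₀ : ℂ} {c k c₀ ε : ℝ}
    (h : Cmp M b m Ψ a ρ P₀ c k c₀ ε) {w : ℂ} (h1 : |w.re - a| < ρ) (h2 : 0 < w.im)
    (h3 : w.im < ρ) (h4 : c₀ * |w.re - a| ≤ w.im) :
    |(Ψ w).im - P₀.im - c * (w.re - a) - k * w.im| ≤ ε * ‖w - a‖ := by
  have hn := h.nt w h1 h2 h3 h4
  have e2 := (Complex.abs_im_le_norm (Ψ w - P₀ - (I * c + k) * (w - a))).trans hn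
  have : (Ψ w - P₀ - (I * c + k) * (w - a)).im =
      (Ψ w).im - P₀.im - c * (w.re - a) - k * w.im := by
    simp only [sub_re, mul_re, add_re, I_re, ofReal_re, zero_mul, I_im, ofReal_im, mul_zero,
      sub_self, zero_add, sub_im, add_im, mul_im, one_mul, add_zero, sub_zero]
    ring
  rwa [this] at e2

/-- **(C2), core form**: one label `a` with `w` non-tangential to `a` -/
theorem non_core {M : Set (ℂ × ℂ)} {b m : ℝ} {Ψ : ℂ → ℂ} {A : Set ℝ} {P : ℝ → ℂ} {c k : ℝ → ℝ}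
    {K₁ L₁ S : ℝ} {dep : ℂ × ℂ → ℝ} (hD : Dp A (fun u => (P u).im) c K₁ L₁ dep)
    {a ρ c₁ : ℝ} (ha : a ∈ A) (hC : Cmp M b m Ψ a ρ (P a) (c a) (k a) c₁ 1)
    (hc : |c a| ≤ S) (hk : |k a| ≤ S) {w : ℂ} (h1 : |w.re - a| < ρ) (h2 : 0 < w.im)
    (h3 : w.im < ρ) (h4 : c₁ * |w.re - a| ≤ w.im) (s : ℂ) :
    |dep (s + Ψ w, w) - (-s.im)| ≤ (|K₁| + |L₁| + 2 * S + 1) * (w.im + |w.re - a|) := by
  have hS : 0 ≤ S := (abs_nonneg _).trans hc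
  have hn := norm_lab (a := a) h2.le
  have hx := abs_nonneg (w.re - a)
  have hn0 := norm_nonneg (w - a)
  have hp := cmp_im hC h1 h2 h3 h4
  rw [one_mul] at hp
  obtain ⟨p1, p2⟩ := abs_le.1 hp
  have q1 : |c a * (w.re - a)| ≤ S * |w.re - a| := by
    rw [abs_mul]; exact mul_le_mul_of_nonneg_right hc hx
  have q2 : |k a * w.im| ≤ S * w.im := by
    rw [abs_mul, abs_of_pos h2]; exact mul_le_mul_of_nonneg_right hk h2.le
  obtain ⟨q3, q4⟩ := abs_le.1 q1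
  obtain ⟨q5, q6⟩ := abs_le.1 q2
  have q7 : K₁ * ‖w - a‖ ≤ |K₁| * (w.im + |w.re - a|) :=
    (mul_le_mul_of_nonneg_right (le_abs_self _) hn0).trans
      (mul_le_mul_of_nonneg_left (by linarith) (abs_nonneg _))
  have q8 : L₁ * ‖w - a‖ ≤ |L₁| * (w.im + |w.re - a|) :=
    (mul_le_mul_of_nonneg_right (le_abs_self _) hn0).trans
      (mul_le_mul_of_nonneg_left (by linarith) (abs_nonneg _))
  have q9 : 0 ≤ |K₁| * (w.im + |w.re - a|) := by positivity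
  have q10 : 0 ≤ |L₁| * (w.im + |w.re - a|) := by positivity
  have q11 : 0 ≤ S * |w.re - a| := by positivity
  have q12 : 0 ≤ S * w.im := by positivity
  have l1 := hD.lb a ha (s + Ψ w) w
  have l2 := (abs_le.1 (hD.lip (s + Ψ w) w a)).2
  have l3 := hD.lab a ha (s + Ψ w)
  simp only [add_im] at l1 l3
  rw [abs_le]
  constructor <;> nlinarith

/-- **(C2)**: the cone constant `K' = KK K₁ L₁ S K₂` does not depend on the aperture `c₁` -/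
theorem non {M : Set (ℂ × ℂ)} {b m : ℝ} {Ψ : ℂ → ℂ} {A : Set ℝ} {P : ℝ → ℂ} {c k : ℝ → ℝ}
    {K₁ L₁ S : ℝ} {dep : ℂ × ℂ → ℝ} (hU : CmpU M b m Ψ A P c k) (hA : IsCompact A)
    (hne : A.Nonempty) (hD : Dp A (fun u => (P u).im) c K₁ L₁ dep)
    (hS : ∀ u ∈ A, |c u| ≤ S ∧ |k u| ≤ S) (K₂ : ℝ) {c₁ : ℝ} (hc₁ : 0 < c₁) :
    ∃ d > 0, ∀ w : ℂ, infDist w.re A < d → 0 < w.im → w.im < d → c₁ * infDist w.re A ≤ w.im →
      ∀ s : ℂ, KK K₁ L₁ S K₂ * (w.im + infDist w.re A) ≤ -s.im →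
        -s.im / 2 ≤ dep (s + Ψ w, w) ∧ dep (s + Ψ w, w) ≤ 2 * (-s.im) ∧
        K₂ * (|w.im| + infDist w.re A) ≤ dep (s + Ψ w, w) ∧
        KK K₁ L₁ S K₂ / 2 * (w.im + infDist w.re A) ≤ dep (s + Ψ w, w) := by
  obtain ⟨ρ, hρ, hC⟩ := hU.cmp c₁ hc₁ 1 one_pos
  refine ⟨ρ, hρ, fun w h1 h2 h3 h4 s hs => ?_⟩
  obtain ⟨a, ha, hda⟩ := hA.exists_infDist_eq_dist hne w.re
  rw [Real.dist_eq] at hda
  rw [hda] at h1 h4 hs ⊢
  have h := non_core hD ha (hC a ha) (hS a ha).1 (hS a ha).2 h1 h2 h3 h4 s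
  obtain ⟨e1, e2⟩ := abs_le.1 h
  have hx : 0 ≤ w.im + |w.re - a| := by positivity
  have hk2 : K₂ * (w.im + |w.re - a|) ≤ |K₂| * (w.im + |w.re - a|) :=
    mul_le_mul_of_nonneg_right (le_abs_self _) hx
  have hk3 : 0 ≤ |K₂| * (w.im + |w.re - a|) := by positivity
  rw [abs_of_pos h2]
  unfold KK at hs ⊢
  refine ⟨by nlinarith, by nlinarith, by nlinarith, by nlinarith⟩

/-- **(C2) with the lateral inequalities (LAT)** of the disc: `-Im s ≤ C' (r + ‖w - u‖)` and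
`c₁ pr w ≤ Im w` -/
theorem non_lat {M : Set (ℂ × ℂ)} {b m : ℝ} {Ψ : ℂ → ℂ} {A : Set ℝ} {P : ℝ → ℂ} {c k : ℝ → ℝ}
    {K₁ L₁ S : ℝ} {dep : ℂ × ℂ → ℝ} (hU : CmpU M b m Ψ A P c k) (hA : IsCompact A)
    (hne : A.Nonempty) (hD : Dp A (fun u => (P u).im) c K₁ L₁ dep)
    (hS : ∀ u ∈ A, |c u| ≤ S ∧ |k u| ≤ S) (K₂ : ℝ) {c₁ : ℝ} (hc₁ : 0 < c₁) :
    ∃ d > 0, ∀ w : ℂ, infDist w.re A < d → 0 < w.im → w.im < d → c₁ * infDist w.re A ≤ w.im →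
      ∀ s : ℂ, KK K₁ L₁ S K₂ * (w.im + infDist w.re A) ≤ -s.im →
      ∀ C' r pr : ℝ, ∀ u : ℂ, -s.im ≤ C' * (r + ‖w - u‖) → c₁ * pr ≤ w.im → 0 ≤ pr →
        min (1 / 2) (c₁ / 4) * (pr + w.im + infDist w.re A) ≤ dep (s + Ψ w, w) ∧
        dep (s + Ψ w, w) ≤ 2 * C' * (r + ‖w - u‖) ∧
        -s.im / 2 ≤ dep (s + Ψ w, w) ∧ dep (s + Ψ w, w) ≤ 2 * (-s.im) ∧
        K₂ * (|w.im| + infDist w.re A) ≤ dep (s + Ψ w, w) := by
  obtain ⟨d, hd, h⟩ := non hU hA hne hD hS K₂ hc₁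
  refine ⟨d, hd, fun w h1 h2 h3 h4 s hs C' r pr u hl hp hp0 => ?_⟩
  obtain ⟨e1, e2, e3, e4⟩ := h w h1 h2 h3 h4 s hs
  have hS0 : 0 ≤ S := by
    obtain ⟨a, ha⟩ := hne
    exact (abs_nonneg _).trans (hS a ha).1
  have hi : 0 ≤ infDist w.re A := infDist_nonneg
  refine ⟨?_, by linarith, e1, e2, e3⟩
  have k1 : 2 ≤ KK K₁ L₁ S K₂ := by
    have h1 := abs_nonneg K₁
    have h2 := abs_nonneg L₁
    have h3 := abs_nonneg K₂
    unfold KK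
    linarith
  have k2 : 1 * (w.im + infDist w.re A) ≤ dep (s + Ψ w, w) :=
    (mul_le_mul_of_nonneg_right (by linarith) (by positivity)).trans e4
  have m1 : min (1 / 2) (c₁ / 4) ≤ 1 / 2 := min_le_left _ _
  have m2 : min (1 / 2) (c₁ / 4) ≤ c₁ / 4 := min_le_right _ _
  have m3 : min (1 / 2) (c₁ / 4) * pr ≤ c₁ / 4 * pr := mul_le_mul_of_nonneg_right m2 hp0
  have m4 : min (1 / 2) (c₁ / 4) * (w.im + infDist w.re A) ≤ 1 / 2 * (w.im + infDist w.re A) :=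
    mul_le_mul_of_nonneg_right m1 (by positivity)
  nlinarith

end Vale.Agent.P097.H103.T
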